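import Vale.Agent.P062.Data.Final

/-!
# Snaky is a winner in the plane

Maker has a winning strategy in the achievement game for Snaky on the initially empty board
`ℤ × ℤ`, without handicap. The proof is a certificate of about ten thousand winning patterns
(cores and zones), found by computer search and checked by the kernel.
-/

namespace Vale.Agent.Results.P062.SnakyWinner

open Vale.Agent.P062

/-- Maker has a strategy that is legal and reaches a copy of Snaky within `22` Maker moves against
every legal play of Breaker on the initially empty plane board. -/
theorem result : ∃ σ : Strategy, ∀ b : ℕ → Cell, LegalBreaker σ b →
    LegalMaker σ b ∧ HasCopy (position σ b 22).1 :=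
  exists_strategy Data.winsIn_empty

end Vale.Agent.Results.P062.SnakyWinner
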